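import Crest.Agent.Helper20.Snaky.Bridge

/-!
# S0047 (Snaky): board symmetries

Translations and the eight signed coordinate permutations of `ℤ × ℤ` map copies of Snaky to
copies of Snaky, hence they preserve `MWin` and `ZWin` of `Crest.Agent.Helper20.Snaky`.

Main statements (`φ : Cell ≃ Cell` with `IsSymm φ`):
* `mwin_map  : MWin n M B → MWin n (M.map φ.toEmbedding) (B.map φ.toEmbedding)`
* `zwin_map  : ZWin n M Bz Z → ZWin n (M.map φ.toEmbedding) (Bz.map φ.toEmbedding) (Z.map φ.toEmbedding)`
* `mwin_image`, `zwin_image` : the same with `Finset.image φ`.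
* `isSymm_transl`, `isSymm_swap`, `isSymm_negX`, `isSymm_negY`, `IsSymm.trans`, `IsSymm.symm`,
  and the eight symmetries `d4 c k` (`k < 8`) of the square with centre `(c, c)` : `isSymm_d4`.
-/

set_option autoImplicit false

namespace Crest.Agent.Helper47.Snaky

open Crest.CombinatoricsR.PolyominoGame
open Crest.Agent.Helper20.Snaky

/-- A bijection of the board that maps copies of Snaky to copies of Snaky. -/
def IsSymm (φ : Cell ≃ Cell) : Prop :=
  ∀ X : Set Cell, ContainsCopy X → ContainsCopy (φ '' X)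

theorem IsSymm.refl : IsSymm (Equiv.refl Cell) := by
  intro X h
  simpa using h

theorem IsSymm.trans {φ ψ : Cell ≃ Cell} (hφ : IsSymm φ) (hψ : IsSymm ψ) :
    IsSymm (φ.trans ψ) := by
  intro X h
  have := hψ _ (hφ X h)
  rw [Set.image_image] at this
  exact this

/-- Translation by `s`. -/
def transl (s : Cell) : Cell ≃ Cell where
  toFun p := (s.1 + p.1, s.2 + p.2)
  invFun p := (p.1 - s.1, p.2 - s.2)
  left_inv p := by ext <;> simp
  right_inv p := by ext <;> simp

/-- Swap of the two coordinates. -/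
def swapE : Cell ≃ Cell where
  toFun p := (p.2, p.1)
  invFun p := (p.2, p.1)
  left_inv _ := rfl
  right_inv _ := rfl

/-- Reflection `x ↦ -x`. -/
def negX : Cell ≃ Cell where
  toFun p := (-p.1, p.2)
  invFun p := (-p.1, p.2)
  left_inv p := by ext <;> simp
  right_inv p := by ext <;> simp

/-- Reflection `y ↦ -y`. -/
def negY : Cell ≃ Cell where
  toFun p := (p.1, -p.2)
  invFun p := (p.1, -p.2)
  left_inv p := by ext <;> simp
  right_inv p := by ext <;> simp

@[simp] theorem transl_apply (s p : Cell) : transl s p = (s.1 + p.1, s.2 + p.2) := rfl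
@[simp] theorem swapE_apply (p : Cell) : swapE p = (p.2, p.1) := rfl
@[simp] theorem negX_apply (p : Cell) : negX p = (-p.1, p.2) := rfl
@[simp] theorem negY_apply (p : Cell) : negY p = (p.1, -p.2) := rfl

theorem isSymm_transl (s : Cell) : IsSymm (transl s) := by
  rintro X ⟨t, e1, e2, h1, h2, h3⟩
  refine ⟨(s.1 + t.1, s.2 + t.2), e1, e2, h1, h2, ?_⟩
  rcases h3 with h3 | h3
  · left
    intro p hp
    refine ⟨_, h3 p hp, ?_⟩
    simp only [transl_apply, Prod.mk.injEq]
    constructor <;> ring
  · right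
    intro p hp
    refine ⟨_, h3 p hp, ?_⟩
    simp only [transl_apply, Prod.mk.injEq]
    constructor <;> ring

theorem isSymm_swap : IsSymm swapE := by
  rintro X ⟨t, e1, e2, h1, h2, h3⟩
  refine ⟨(t.2, t.1), e2, e1, h2, h1, ?_⟩
  rcases h3 with h3 | h3
  · right
    intro p hp
    exact ⟨_, h3 p hp, rfl⟩
  · left
    intro p hp
    exact ⟨_, h3 p hp, rfl⟩

theorem isSymm_negX : IsSymm negX := by
  rintro X ⟨t, e1, e2, h1, h2, h3⟩
  refine ⟨(-t.1, t.2), -e1, e2, ?_, h2, ?_⟩
  · rcases h1 with rfl | rfl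
    · right; rfl
    · left; norm_num
  rcases h3 with h3 | h3
  · left
    intro p hp
    refine ⟨_, h3 p hp, Prod.ext ?_ ?_⟩
    · simp only [negX_apply]; ring
    · simp only [negX_apply]
  · right
    intro p hp
    refine ⟨_, h3 p hp, Prod.ext ?_ ?_⟩
    · simp only [negX_apply]; ring
    · simp only [negX_apply]

theorem isSymm_negY : IsSymm negY := by
  rintro X ⟨t, e1, e2, h1, h2, h3⟩
  refine ⟨(t.1, -t.2), e1, -e2, h1, ?_, ?_⟩
  · rcases h2 with rfl | rfl
    · right; rfl
    · left; norm_num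
  rcases h3 with h3 | h3
  · left
    intro p hp
    refine ⟨_, h3 p hp, Prod.ext ?_ ?_⟩
    · simp only [negY_apply]
    · simp only [negY_apply]; ring
  · right
    intro p hp
    refine ⟨_, h3 p hp, Prod.ext ?_ ?_⟩
    · simp only [negY_apply]
    · simp only [negY_apply]; ring

theorem IsSymm.symm_transl (s : Cell) : IsSymm (transl s).symm := by
  have h : (transl s).symm = transl (-s.1, -s.2) := by
    ext p <;> simp [transl, sub_eq_add_neg, add_comm]
  rw [h]
  exact isSymm_transl _

/-- Symmetries preserve Maker wins. -/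
theorem mwin_map {φ : Cell ≃ Cell} (hφ : IsSymm φ) {n : ℕ} {M B : Finset Cell}
    (h : MWin n M B) : MWin n (M.map φ.toEmbedding) (B.map φ.toEmbedding) := by
  induction h with
  | now n M B hc =>
      refine MWin.now _ _ _ ?_
      have := hφ _ hc
      simpa [Finset.coe_map] using this
  | step n M B m hmM hmB _ ih =>
      refine MWin.step n _ _ (φ m) ?_ ?_ (fun r hrM hrm hrB => ?_)
      · simpa using hmM
      · simpa using hmB
      · have h1 : φ.symm r ∉ M := by
          intro hx
          exact hrM (Finset.mem_map.mpr ⟨φ.symm r, hx, by simp⟩)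
        have h2 : φ.symm r ≠ m := by
          intro hx
          exact hrm (by rw [← hx]; simp)
        have h3 : φ.symm r ∉ B := by
          intro hx
          exact hrB (Finset.mem_map.mpr ⟨φ.symm r, hx, by simp⟩)
        have := ih (φ.symm r) h1 h2 h3
        simpa [Finset.map_insert] using this

/-- Symmetries preserve zone wins. -/
theorem zwin_map {φ : Cell ≃ Cell} (hφ : IsSymm φ) {n : ℕ} {M Bz Z : Finset Cell}
    (h : ZWin n M Bz Z) :
    ZWin n (M.map φ.toEmbedding) (Bz.map φ.toEmbedding) (Z.map φ.toEmbedding) := by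
  intro B hB
  have h1 : MWin n M (B.map φ.symm.toEmbedding) := by
    refine h _ ?_
    intro x hx hxZ
    rw [Finset.mem_map] at hx
    obtain ⟨y, hy, rfl⟩ := hx
    have := hB y hy (Finset.mem_map.mpr ⟨φ.symm y, hxZ, by simp⟩)
    rw [Finset.mem_map] at this
    obtain ⟨z, hz, hzy⟩ := this
    have : φ.symm y = z := by
      rw [← hzy]; simp
    simpa [this] using hz
  have h2 := mwin_map hφ h1
  have h3 : (B.map φ.symm.toEmbedding).map φ.toEmbedding = B := by
    ext x
    simp
  rwa [h3] at h2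

theorem mwin_image {φ : Cell ≃ Cell} (hφ : IsSymm φ) {n : ℕ} {M B : Finset Cell}
    (h : MWin n M B) : MWin n (M.image φ) (B.image φ) := by
  have := mwin_map hφ h
  rwa [Finset.map_eq_image, Finset.map_eq_image] at this

theorem zwin_image {φ : Cell ≃ Cell} (hφ : IsSymm φ) {n : ℕ} {M Bz Z : Finset Cell}
    (h : ZWin n M Bz Z) : ZWin n (M.image φ) (Bz.image φ) (Z.image φ) := by
  have := zwin_map hφ h
  rwa [Finset.map_eq_image, Finset.map_eq_image, Finset.map_eq_image] at this

/-- The eight symmetries of the square with centre `(c, c)`, as explicit maps: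
`0 : (x, y)`, `1 : (2c - x, y)`, `2 : (x, 2c - y)`, `3 : (2c - x, 2c - y)`,
`4 : (y, x)`, `5 : (2c - y, x)`, `6 : (y, 2c - x)`, `7 : (2c - y, 2c - x)`;
any other index gives the identity. -/
def d4fun (c : ℤ) (k : ℕ) (p : Cell) : Cell :=
  match k with
  | 1 => (2 * c - p.1, p.2)
  | 2 => (p.1, 2 * c - p.2)
  | 3 => (2 * c - p.1, 2 * c - p.2)
  | 4 => (p.2, p.1)
  | 5 => (2 * c - p.2, p.1)
  | 6 => (p.2, 2 * c - p.1)
  | 7 => (2 * c - p.2, 2 * c - p.1)
  | _ => p

/-- Index of the inverse symmetry. -/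
def d4inv (k : ℕ) : ℕ :=
  match k with
  | 5 => 6
  | 6 => 5
  | k => k

theorem d4fun_of_ge (c : ℤ) {k : ℕ} (hk : 8 ≤ k) (p : Cell) : d4fun c k p = p := by
  unfold d4fun
  split <;> first | omega | rfl

theorem d4inv_of_ge {k : ℕ} (hk : 8 ≤ k) : d4inv k = k := by
  unfold d4inv
  split <;> omega

theorem d4fun_inv (c : ℤ) (k : ℕ) (p : Cell) : d4fun c (d4inv k) (d4fun c k p) = p := by
  obtain ⟨x, y⟩ := p
  rcases Nat.lt_or_ge k 8 with hk | hk
  · interval_cases k <;> simp [d4inv, d4fun]
  · rw [d4inv_of_ge hk, d4fun_of_ge c hk, d4fun_of_ge c hk]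

theorem d4fun_inv' (c : ℤ) (k : ℕ) (p : Cell) : d4fun c k (d4fun c (d4inv k) p) = p := by
  obtain ⟨x, y⟩ := p
  rcases Nat.lt_or_ge k 8 with hk | hk
  · interval_cases k <;> simp [d4inv, d4fun]
  · rw [d4inv_of_ge hk, d4fun_of_ge c hk, d4fun_of_ge c hk]

/-- The eight symmetries of the square with centre `(c, c)` as equivalences. -/
def d4 (c : ℤ) (k : ℕ) : Cell ≃ Cell where
  toFun := d4fun c k
  invFun := d4fun c (d4inv k)
  left_inv := d4fun_inv c k
  right_inv := d4fun_inv' c k

@[simp] theorem d4_apply (c : ℤ) (k : ℕ) (p : Cell) : d4 c k p = d4fun c k p := rfl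

theorem isSymm_of_eq {φ ψ : Cell ≃ Cell} (hφ : IsSymm φ) (h : ∀ p, ψ p = φ p) : IsSymm ψ := by
  have : ψ = φ := Equiv.ext h
  rw [this]
  exact hφ

theorem isSymm_d4 (c : ℤ) (k : ℕ) : IsSymm (d4 c k) := by
  have hX : IsSymm ((negX.trans (transl (2 * c, 0)))) := isSymm_negX.trans (isSymm_transl _)
  have hY : IsSymm ((negY.trans (transl (0, 2 * c)))) := isSymm_negY.trans (isSymm_transl _)
  have hS : IsSymm swapE := isSymm_swap
  rcases Nat.lt_or_ge k 8 with hk | hk
  · interval_cases k
    · exact isSymm_of_eq IsSymm.refl (fun p => rfl)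
    · refine isSymm_of_eq hX (fun p => ?_)
      simp [d4fun, sub_eq_add_neg]
    · refine isSymm_of_eq hY (fun p => ?_)
      simp [d4fun, sub_eq_add_neg]
    · refine isSymm_of_eq (hX.trans hY) (fun p => ?_)
      simp [d4fun, sub_eq_add_neg]
    · exact isSymm_of_eq hS (fun p => rfl)
    · refine isSymm_of_eq (hS.trans hX) (fun p => ?_)
      simp [d4fun, sub_eq_add_neg]
    · refine isSymm_of_eq (hS.trans hY) (fun p => ?_)
      simp [d4fun, sub_eq_add_neg]
    · refine isSymm_of_eq ((hS.trans hX).trans hY) (fun p => ?_)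
      simp [d4fun, sub_eq_add_neg]
  · refine isSymm_of_eq IsSymm.refl (fun p => ?_)
    simpa using d4fun_of_ge c hk p

/-- Zone wins are invariant under the symmetries of the square with centre `(c, c)`. -/
theorem zwin_d4 (c : ℤ) (k : ℕ) {n : ℕ} {M Bz Z : Finset Cell} (h : ZWin n M Bz Z) :
    ZWin n (M.image (d4fun c k)) (Bz.image (d4fun c k)) (Z.image (d4fun c k)) :=
  zwin_image (isSymm_d4 c k) h

/-- Maker wins are invariant under the symmetries of the square with centre `(c, c)`. -/
theorem mwin_d4 (c : ℤ) (k : ℕ) {n : ℕ} {M B : Finset Cell} (h : MWin n M B) :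
    MWin n (M.image (d4fun c k)) (B.image (d4fun c k)) :=
  mwin_image (isSymm_d4 c k) h

/-- Zone wins are invariant under translations. -/
theorem zwin_transl (s : Cell) {n : ℕ} {M Bz Z : Finset Cell} (h : ZWin n M Bz Z) :
    ZWin n (M.image (fun p => (s.1 + p.1, s.2 + p.2))) (Bz.image (fun p => (s.1 + p.1, s.2 + p.2)))
      (Z.image (fun p => (s.1 + p.1, s.2 + p.2))) :=
  zwin_image (isSymm_transl s) h

/-- Convenience form for explicit positions: the caller supplies the transformed sets and proves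
the three `Finset.image` equalities (for explicit finsets: `by decide` or `by simp [d4fun]`). -/
theorem zwin_d4_of_eq (c : ℤ) (k : ℕ) {n : ℕ} {M Bz Z M' Bz' Z' : Finset Cell}
    (h : ZWin n M Bz Z) (hM : M.image (d4fun c k) = M') (hB : Bz.image (d4fun c k) = Bz')
    (hZ : Z.image (d4fun c k) = Z') : ZWin n M' Bz' Z' := by
  subst hM hB hZ
  exact zwin_d4 c k h

end Crest.Agent.Helper47.Snaky
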